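import Vale.Agent.P329.Action

namespace Vale.Agent.P329

section Rel

variable {A M G : Type} [Monoid M] [Group G]

/-- The word `w` with every letter decorated by the value in `G` of the letters before it,
starting from `g`. -/
def deco (φ : A → G) : G → List A → List (G × A)
  | _, [] => []
  | g, a :: w => (g, a) :: deco φ (g * φ a) w

theorem deco_append (φ : A → G) (g : G) (u v : List A) :
    deco φ g (u ++ v) = deco φ g u ++ deco φ (g * (u.map φ).prod) v := by
  induction u generalizing g with
  | nil => simp [deco]
  | cons a u ih => simp [deco, ih, mul_assoc]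

theorem deco_eq_nil (φ : A → G) (g : G) (w : List A) : deco φ g w = [] ↔ w = [] := by
  cases w with
  | nil => simp [deco]
  | cons a w => simp [deco]

theorem deco_eq_singleton (φ : A → G) (g h : G) (a : A) (w : List A) :
    deco φ g w = [(h, a)] ↔ g = h ∧ w = [a] := by
  cases w with
  | nil => simp [deco]
  | cons c w =>
    simp only [deco, List.cons.injEq, Prod.mk.injEq, deco_eq_nil]
    tauto

theorem deco_split (φ : A → G) (g : G) (w : List A) (x y : List (G × A))
    (h : deco φ g w = x ++ y) :
    ∃ u v, w = u ++ v ∧ deco φ g u = x ∧ deco φ (g * (u.map φ).prod) v = y := by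
  induction x generalizing g w with
  | nil => exact ⟨[], w, rfl, rfl, by simpa using h⟩
  | cons b x ih =>
    cases w with
    | nil => simp [deco] at h
    | cons a w =>
      simp only [deco, List.cons_append, List.cons.injEq] at h
      obtain ⟨u, v, rfl, hu, hv⟩ := ih (g * φ a) w h.2
      refine ⟨a :: u, v, rfl, ?_, ?_⟩
      · simp [deco, hu, h.1]
      · simpa [mul_assoc] using hv

/-- The pullback of a language along the decoration map. -/
def pull (φ : A → G) (g : G) (L : Language (G × A)) : Language A := {w | deco φ g w ∈ L}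

theorem mem_pull (φ : A → G) (g : G) (L : Language (G × A)) (w : List A) :
    w ∈ pull φ g L ↔ deco φ g w ∈ L := Iff.rfl

/-- The group language of `g`. -/
def glang (φ : A → G) (g : G) : Language A := {w | (w.map φ).prod = g}

theorem mem_glang (φ : A → G) (g : G) (w : List A) :
    w ∈ glang φ g ↔ (w.map φ).prod = g := Iff.rfl

/-- Pulling a star-free language back along the decoration map costs nothing beyond the group
languages. -/
theorem deco_HT (φ : A → G) [Finite G] (k : ℕ) (hG : ∀ g : G, HT k (glang φ g))
    (P : GRegex (G × A)) (hP : P.sh = 0) (g : G) : HT k (pull φ g P.lang) := by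
  induction P generalizing g with
  | zero => exact HT.of_iff (HT.zero k) fun w => Iff.rfl
  | one =>
    refine HT.of_iff (HT.one k) fun w => ?_
    rw [mem_pull]
    show deco φ g w ∈ (1 : Language (G × A)) ↔ w ∈ (1 : Language A)
    rw [Language.mem_one, Language.mem_one, deco_eq_nil]
  | letter b =>
    obtain ⟨h, a⟩ := b
    by_cases hg : g = h
    · refine HT.of_iff (HT.letter k a) fun w => ?_
      rw [mem_pull]
      show deco φ g w = [(h, a)] ↔ w = [a]
      rw [deco_eq_singleton]
      tauto
    · refine HT.of_iff (HT.zero k) fun w => ?_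
      rw [mem_pull]
      show deco φ g w = [(h, a)] ↔ False
      rw [deco_eq_singleton]
      tauto
  | union P Q ihP ihQ =>
    have h1 : P.sh = 0 := by
      simp only [GRegex.sh] at hP
      omega
    have h2 : Q.sh = 0 := by
      simp only [GRegex.sh] at hP
      omega
    exact HT.of_iff ((ihP h1 g).add (ihQ h2 g)) fun w => Iff.rfl
  | concat P Q ihP ihQ =>
    have h1 : P.sh = 0 := by
      simp only [GRegex.sh] at hP
      omega
    have h2 : Q.sh = 0 := by
      simp only [GRegex.sh] at hP
      omega
    have hU := HT.exists_fintype (k := k)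
      (fun h : G => (pull φ g P.lang ⊓ glang φ h) * pull φ (g * h) Q.lang)
      (fun h => ((ihP h1 g).inf (hG h)).mul (ihQ h2 (g * h)))
    refine HT.of_iff hU fun w => ?_
    constructor
    · intro hw
      obtain ⟨x, hx, y, hy, hxy⟩ := Language.mem_mul.1 hw
      obtain ⟨u, v, rfl, hu, hv⟩ := deco_split φ g w x y hxy.symm
      refine ⟨(u.map φ).prod, Language.mem_mul.2 ⟨u, ⟨?_, rfl⟩, v, ?_, rfl⟩⟩
      · show deco φ g u ∈ P.lang
        rw [hu]
        exact hx
      · show deco φ (g * (u.map φ).prod) v ∈ Q.lang
        rw [hv]
        exact hy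
    · rintro ⟨h, hw⟩
      obtain ⟨u, ⟨hu1, hu2⟩, v, hv, rfl⟩ := Language.mem_mul.1 hw
      show deco φ g (u ++ v) ∈ P.lang * Q.lang
      rw [deco_append]
      refine Language.mem_mul.2 ⟨_, hu1, _, ?_, rfl⟩
      have hu2' : (u.map φ).prod = h := hu2
      rw [hu2']
      exact hv
  | compl P ih =>
    have h1 : P.sh = 0 := by simpa [GRegex.sh] using hP
    exact HT.of_iff (ih h1 g).compl fun w => Iff.rfl
  | star P _ => simp [GRegex.sh] at hP

end Rel

end Vale.Agent.P329
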