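import Vale.Agent.P329.U.Rel

namespace Vale.Agent.P329

section Rel2

variable {A M G : Type} [Monoid M] [Group G]

open Classical in
/-- The automaton on `M` reading decorated letters: the letter `(g, a)` is only allowed at the
elements lying over `g`. -/
noncomputable def cact (π : M →* G) (η : A → M) : Option M → G × A → Option M
  | none, _ => none
  | some m, b => if π m = b.1 then some (m * η b.2) else none

theorem cact_none (π : M →* G) (η : A → M) (u : List (G × A)) :
    arun (cact π η) none u = none := by
  induction u with
  | nil => rfl
  | cons b u ih => exact ih

theorem cact_head (π : M →* G) (η : A → M) (m m' : M) (b : G × A) (v : List (G × A))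
    (h : arun (cact π η) (some m) (b :: v) = some m') : π m = b.1 := by
  by_contra hne
  rw [arun_cons] at h
  have : cact π η (some m) b = none := by simp [cact, hne]
  rw [this, cact_none] at h
  exact absurd h (by simp)

theorem cact_prod (π : M →* G) (η : A → M) (m m' : M) (u : List (G × A))
    (h : arun (cact π η) (some m) u = some m') :
    m' = m * (u.map (fun b => η b.2)).prod := by
  induction u generalizing m with
  | nil =>
    have : some m = some m' := h
    simpa using (Option.some.inj this).symm
  | cons b u ih =>
    have hb := cact_head π η m m' b u h
    rw [arun_cons] at h
    have : cact π η (some m) b = some (m * η b.2) := by simp [cact, hb]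
    rw [this] at h
    rw [ih _ h, List.map_cons, List.prod_cons, mul_assoc]

theorem cact_deco (π : M →* G) (η : A → M) (m : M) (w : List A) :
    arun (cact π η) (some m) (deco (fun a => π (η a)) (π m) w) = some (m * (w.map η).prod) := by
  induction w generalizing m with
  | nil => simp [deco, arun]
  | cons a w ih =>
    have h1 : cact π η (some m) (π m, a) = some (m * η a) := by simp [cact]
    have h2 : π m * π (η a) = π (m * η a) := (map_mul π m (η a)).symm
    simp only [deco]
    rw [arun_cons, h1, h2, ih, List.map_cons, List.prod_cons, mul_assoc]

theorem pow_stab {e : M} {n : ℕ} (h : e ^ n = e ^ (n + 1)) (t : ℕ) :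
    e ^ (n + t) = e ^ (n + t + 1) := by
  rw [pow_add, h, ← pow_add]
  congr 1
  omega

theorem cact_cf (π : M →* G) (η : A → M) (hap : ∀ x : M, π x = 1 → ∃ n, x ^ n = x ^ (n + 1))
    (u : List (G × A)) (x : Option M) (j : ℕ) (hj : 0 < j)
    (hx : (fun s => arun (cact π η) s u)^[j] x = x) : arun (cact π η) x u = x := by
  cases x with
  | none => exact cact_none π η u
  | some m =>
    cases u with
    | nil => rfl
    | cons b v =>
      set f : Option M → Option M := fun s => arun (cact π η) s (b :: v) with hf
      set e : M := ((b :: v).map (fun b => η b.2)).prod with he
      have hnone : ∀ i, f^[i] none = none := by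
        intro i
        induction i with
        | zero => rfl
        | succ i ih =>
          rw [Function.iterate_succ_apply']
          rw [ih]
          exact cact_none π η _
      have hper : ∀ i, f^[j * i] (some m) = some m := by
        intro i
        induction i with
        | zero => rfl
        | succ i ih =>
          rw [Nat.mul_succ, Function.iterate_add_apply, hx, ih]
      have hne : ∀ i, f^[i] (some m) ≠ none := by
        intro i hi
        have h1 : j * i = (j * i - i) + i := by
          have : i ≤ j * i := Nat.le_mul_of_pos_left i hj
          omega
        have h2 := hper i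
        rw [h1, Function.iterate_add_apply, hi, hnone] at h2
        exact absurd h2 (by simp)
      have hall : ∀ i, f^[i] (some m) = some (m * e ^ i) := by
        intro i
        induction i with
        | zero => simp
        | succ i ih =>
          have h1 := hne (i + 1)
          rw [Function.iterate_succ_apply', ih] at h1 ⊢
          obtain ⟨m', hm'⟩ := Option.ne_none_iff_exists'.1 h1
          rw [hm']
          have := cact_prod π η _ _ _ hm'
          rw [this, pow_succ, mul_assoc]
      have h1 : f (some m) = some (m * e) := by
        have := hall 1
        simpa using this
      have h2 : f (some (m * e)) = some (m * e ^ 2) := by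
        have := hall 2
        rw [Function.iterate_succ_apply', show f^[1] (some m) = f (some m) from rfl, h1] at this
        exact this
      have hp1 : π m = b.1 := cact_head π η _ _ b v h1
      have hp2 : π (m * e) = b.1 := cact_head π η _ _ b v h2
      have hpe : π e = 1 := by
        rw [map_mul, hp1] at hp2
        exact mul_eq_left.1 hp2
      obtain ⟨n, hn⟩ := hap e hpe
      have hmj : ∀ i, m * e ^ (j * i) = m := by
        intro i
        have := hall (j * i)
        rw [hper i] at this
        exact (Option.some.inj this).symm
      have hjn : j * n = n + (j * n - n) := by
        have : n ≤ j * n := Nat.le_mul_of_pos_left n hj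
        omega
      have hst : e ^ (j * n) = e ^ (j * n + 1) := by
        have := pow_stab hn (j * n - n)
        rw [← hjn] at this
        exact this
      have hme : m * e = m := by
        calc m * e = (m * e ^ (j * n)) * e := by rw [hmj n]
          _ = m * e ^ (j * n + 1) := by rw [pow_succ, mul_assoc]
          _ = m * e ^ (j * n) := by rw [← hst]
          _ = m := hmj n
      show f (some m) = some m
      rw [h1, hme]

/-- A relative form of the theorem of Schutzenberger: if the elements of `M` lying over `1` are
aperiodic, the languages recognized through `η` are not higher than the group languages. -/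
theorem rel_schutz [Finite A] [Finite M] [Finite G] (π : M →* G)
    (hap : ∀ x : M, π x = 1 → ∃ n, x ^ n = x ^ (n + 1)) (η : A → M) (k : ℕ)
    (hG : ∀ g : G, HT k (glang (fun a => π (η a)) g)) (T : Set M) :
    HT k ({w : List A | (w.map η).prod ∈ T} : Set (List A)) := by
  have key : ∀ t : M, HT k ({w : List A | (w.map η).prod = t} : Set (List A)) := by
    intro t
    obtain ⟨P, hP, hL⟩ := schutz_action (cact π η) (cact_cf π η hap) (some 1) (some t)
    have h0 : P.sh = 0 := by omega
    refine HT.of_iff (deco_HT (fun a => π (η a)) k hG P h0 1) fun w => ?_
    rw [mem_pull, hL]
    have := cact_deco π η 1 w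
    rw [map_one, one_mul] at this
    show (w.map η).prod = t ↔ arun (cact π η) (some 1) (deco (fun a => π (η a)) 1 w) = some t
    rw [this]
    constructor
    · intro h
      rw [h]
    · intro h
      exact Option.some.inj h
  refine HT.of_iff (HT.exists_fintype_of (k := k) (fun t : M => t ∈ T)
    (fun t => ({w : List A | (w.map η).prod = t} : Set (List A))) (fun t _ => key t)) fun w => ?_
  constructor
  · intro h
    exact ⟨_, h, rfl⟩
  · rintro ⟨t, ht, hw⟩
    have hw' : (w.map η).prod = t := hw
    show (w.map η).prod ∈ T
    rw [hw']
    exact ht

end Rel2

end Vale.Agent.P329
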